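import Vale.Agent.Lib.P309.Kz.Defs

namespace Vale.Agent.Lib.P309

open MeasureTheory ProbabilityTheory
open scoped ENNReal

/-- A vector within distance `ε / 2` of a unit vector `s`, `ε ≤ 1`, has its direction within
angle `ε` of `s`. -/
theorem kz_angle {d : ℕ} (hd : 1 ≤ d) (v : Vec d) (s : Sph d) (ε : ℝ) (hε : 0 < ε)
    (hε1 : ε ≤ 1) (h : ‖v - (s : Vec d)‖ ≤ ε / 2) :
    normSph hd v ∈ goodOutputs d ε s := by
  have hs1 : ‖(s : Vec d)‖ = 1 := mem_sphere_zero_iff_norm.mp s.2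
  have hv_norm : 1 - ε / 2 ≤ ‖v‖ := by
    have h1 := norm_sub_norm_le (s : Vec d) v
    rw [norm_sub_rev] at h1
    linarith
  have hv0 : v ≠ 0 := by
    intro h0
    rw [h0, norm_zero] at hv_norm
    linarith
  have hvpos : 0 < ‖v‖ := norm_pos_iff.mpr hv0
  show InnerProductGeometry.angle ((normSph hd v : Sph d) : Vec d) (s : Vec d) ≤ ε
  have hcoe : ((normSph hd v : Sph d) : Vec d) = ‖v‖⁻¹ • v := by
    unfold normSph
    rw [dif_neg hv0]
  rw [hcoe, InnerProductGeometry.angle_smul_left_of_pos _ _ (inv_pos.mpr hvpos)]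
  obtain ⟨θ, hθ⟩ : ∃ θ : ℝ, θ = InnerProductGeometry.angle v (s : Vec d) := ⟨_, rfl⟩
  rw [← hθ]
  have hθ0 : 0 ≤ θ := hθ ▸ InnerProductGeometry.angle_nonneg _ _
  have hθπ : θ ≤ Real.pi := hθ ▸ InnerProductGeometry.angle_le_pi _ _
  have hcos : inner ℝ v (s : Vec d) = ‖v‖ * Real.cos θ := by
    have h1 := InnerProductGeometry.cos_angle_mul_norm_mul_norm v (s : Vec d)
    rw [hs1, mul_one, ← hθ] at h1
    linarith
  have hinner : 1 - ε / 2 ≤ inner ℝ v (s : Vec d) := by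
    have h1 : inner ℝ v (s : Vec d)
        = inner ℝ (v - (s : Vec d)) (s : Vec d) + inner ℝ (s : Vec d) (s : Vec d) := by
      rw [← inner_add_left, sub_add_cancel]
    have h2 : inner ℝ (s : Vec d) (s : Vec d) = 1 := by
      rw [real_inner_self_eq_norm_sq, hs1]
      norm_num
    have h3 : |inner ℝ (v - (s : Vec d)) (s : Vec d)| ≤ ‖v - (s : Vec d)‖ * ‖(s : Vec d)‖ :=
      abs_real_inner_le_norm _ _
    rw [hs1, mul_one] at h3
    have h4 := neg_abs_le (inner ℝ (v - (s : Vec d)) (s : Vec d))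
    linarith
  have hcospos : 0 < Real.cos θ := by
    have h1 : 0 < ‖v‖ * Real.cos θ := by
      rw [← hcos]
      linarith
    exact (mul_pos_iff_of_pos_left hvpos).mp h1
  have hθ2 : θ ≤ Real.pi / 2 := by
    by_contra hcon
    have h1 := Real.cos_neg_of_pi_div_two_lt_of_lt (not_le.mp hcon)
      (by linarith [Real.pi_pos])
    linarith
  have hsin0 : 0 ≤ Real.sin θ := Real.sin_nonneg_of_nonneg_of_le_pi hθ0 hθπ
  have hlaw : ‖v - (s : Vec d)‖ ^ 2 = ‖v‖ ^ 2 - 2 * (‖v‖ * Real.cos θ) + 1 := by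
    rw [norm_sub_sq_real, hcos, hs1]
    ring
  have hsin : Real.sin θ ≤ ε / 2 := by
    have h1 : Real.sin θ ^ 2 ≤ ‖v - (s : Vec d)‖ ^ 2 := by
      rw [hlaw]
      nlinarith [Real.sin_sq_add_cos_sq θ, sq_nonneg (‖v‖ - Real.cos θ)]
    have h2 : Real.sin θ ≤ ‖v - (s : Vec d)‖ :=
      (pow_le_pow_iff_left₀ hsin0 (norm_nonneg _) two_ne_zero).mp h1
    linarith
  have hjordan : 2 / Real.pi * θ ≤ Real.sin θ := Real.mul_le_sin hθ0 hθ2
  have hpi : Real.pi ≤ 4 := Real.pi_le_four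
  have hpipos := Real.pi_pos
  have h5 : θ ≤ Real.pi / 2 * Real.sin θ := by
    have h6 := mul_le_mul_of_nonneg_left hjordan (by positivity : (0 : ℝ) ≤ Real.pi / 2)
    have e : Real.pi / 2 * (2 / Real.pi * θ) = θ := by
      field_simp
    linarith
  nlinarith

end Vale.Agent.Lib.P309
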