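import Mathlib

namespace Vale.Agent.Lib.P309

/-- The contraction factor `1 - 1/(2d)` is nonnegative. -/
theorem kzArith_q_nonneg (d : ℕ) (hd : 1 ≤ d) : 0 ≤ 1 - 1 / (2 * (d : ℝ)) := by
  have hd' : (1 : ℝ) ≤ d := by exact_mod_cast hd
  have h : 1 / (2 * (d : ℝ)) ≤ 1 := by
    rw [div_le_one (by linarith)]
    linarith
  linarith

/-- The contraction factor `1 - 1/(2d)` is at most one. -/
theorem kzArith_q_le_one (d : ℕ) : 1 - 1 / (2 * (d : ℝ)) ≤ 1 := by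
  have h : 0 ≤ 1 / (2 * (d : ℝ)) := by positivity
  linarith

/-- `2 d` steps of the contraction factor gain one bit. -/
theorem kzArith_q_pow (d : ℕ) (hd : 1 ≤ d) : (1 - 1 / (2 * (d : ℝ))) ^ (2 * d) ≤ 1 / 2 := by
  have hd' : (1 : ℝ) ≤ d := by exact_mod_cast hd
  have hd0 : (d : ℝ) ≠ 0 := by linarith
  have hq0 := kzArith_q_nonneg d hd
  have h1 : 1 - 1 / (2 * (d : ℝ)) ≤ Real.exp (-(1 / (2 * (d : ℝ)))) :=
    Real.one_sub_le_exp_neg _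
  have h2 : (1 - 1 / (2 * (d : ℝ))) ^ (2 * d) ≤ Real.exp (-(1 / (2 * (d : ℝ)))) ^ (2 * d) :=
    pow_le_pow_left₀ hq0 h1 _
  have h3 : Real.exp (-(1 / (2 * (d : ℝ)))) ^ (2 * d) = Real.exp (-1) := by
    rw [← Real.exp_nat_mul]
    congr 1
    push_cast
    field_simp
  have h4 : Real.exp (-1) ≤ 1 / 2 := by
    rw [Real.exp_neg, one_div]
    have h5 : (2 : ℝ) ≤ Real.exp 1 := by linarith [Real.add_one_le_exp (1 : ℝ)]
    exact inv_anti₀ (by norm_num) h5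
  rw [h3] at h2
  exact h2.trans h4

/-- After `2 d (b + 5)` steps the contraction factor `1 - 1/(2d)` has gained `b + 5` bits. -/
theorem kz_pow_le (d b T : ℕ) (hd : 1 ≤ d) (hT : 2 * d * (b + 5) ≤ T) :
    (1 - 1 / (2 * (d : ℝ))) ^ T ≤ (1 / 2) ^ (b + 5) := by
  have hq0 := kzArith_q_nonneg d hd
  have hq1 := kzArith_q_le_one d
  calc (1 - 1 / (2 * (d : ℝ))) ^ T
      ≤ (1 - 1 / (2 * (d : ℝ))) ^ (2 * d * (b + 5)) := pow_le_pow_of_le_one hq0 hq1 hT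
    _ = ((1 - 1 / (2 * (d : ℝ))) ^ (2 * d)) ^ (b + 5) := pow_mul _ _ _
    _ ≤ (1 / 2) ^ (b + 5) := pow_le_pow_left₀ (pow_nonneg hq0 _) (kzArith_q_pow d hd) _

/-- The geometric sums of the contraction factor are at most `2 d`. -/
theorem kz_geom (d T : ℕ) (hd : 1 ≤ d) :
    ∑ i ∈ Finset.range T, (1 - 1 / (2 * (d : ℝ))) ^ i ≤ 2 * (d : ℝ) := by
  have hd' : (1 : ℝ) ≤ d := by exact_mod_cast hd
  have hd0 : (d : ℝ) ≠ 0 := by linarith
  have hq0 := kzArith_q_nonneg d hd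
  have h2dq : 2 * (d : ℝ) * (1 - 1 / (2 * (d : ℝ))) = 2 * (d : ℝ) - 1 := by
    field_simp
  have key : ∀ n : ℕ, ∑ i ∈ Finset.range n, (1 - 1 / (2 * (d : ℝ))) ^ i
      = 2 * (d : ℝ) * (1 - (1 - 1 / (2 * (d : ℝ))) ^ n) := by
    intro n
    induction n with
    | zero => simp
    | succ n ih =>
      rw [Finset.sum_range_succ, ih, pow_succ]
      linear_combination ((1 - 1 / (2 * (d : ℝ))) ^ n) * h2dq
  rw [key]
  have hpow : 0 ≤ (1 - 1 / (2 * (d : ℝ))) ^ T := pow_nonneg hq0 T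
  nlinarith [mul_nonneg (by linarith : (0 : ℝ) ≤ 2 * (d : ℝ)) hpow]

/-- With `m` bits per coordinate, `24 d^2 2^b ≤ 2^m`, the accumulated quantization error is at
most `2^(-b) / 12`. -/
theorem kz_rho (d b m : ℕ) (hd : 1 ≤ d) (hm : 24 * d ^ 2 * 2 ^ b ≤ 2 ^ m) :
    2 * (d : ℝ) * (Real.sqrt d / 2 ^ m) ≤ (1 / 2) ^ b / 12 := by
  have hd' : (1 : ℝ) ≤ d := by exact_mod_cast hd
  have hm' : (24 : ℝ) * (d : ℝ) ^ 2 * 2 ^ b ≤ 2 ^ m := by exact_mod_cast hm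
  have hs : Real.sqrt d ≤ d := by
    rw [Real.sqrt_le_left (by linarith)]
    nlinarith
  have h2m : (0 : ℝ) < 2 ^ m := by positivity
  have h2b : (0 : ℝ) < 2 ^ b := by positivity
  calc 2 * (d : ℝ) * (Real.sqrt d / 2 ^ m) ≤ 2 * (d : ℝ) * ((d : ℝ) / 2 ^ m) :=
        mul_le_mul_of_nonneg_left (div_le_div_of_nonneg_right hs h2m.le) (by linarith)
    _ = 2 * (d : ℝ) ^ 2 / 2 ^ m := by ring
    _ ≤ 1 / (12 * 2 ^ b) := by
        rw [div_le_div_iff₀ h2m (by positivity)]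
        nlinarith
    _ = (1 / 2) ^ b / 12 := by
        rw [one_div_pow]
        field_simp

/-- `b + 2 ⌈log₂ d⌉ + 5` bits per coordinate are enough. -/
theorem kz_clog (d b : ℕ) : 24 * d ^ 2 * 2 ^ b ≤ 2 ^ (b + 2 * Nat.clog 2 d + 5) := by
  have h1 : d ≤ 2 ^ Nat.clog 2 d := Nat.le_pow_clog (by norm_num) d
  have h2 : d ^ 2 ≤ (2 ^ Nat.clog 2 d) ^ 2 := Nat.pow_le_pow_left h1 2
  have h3 : 2 ^ (b + 2 * Nat.clog 2 d + 5) = 32 * (2 ^ Nat.clog 2 d) ^ 2 * 2 ^ b := by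
    ring
  rw [h3]
  exact Nat.mul_le_mul_right _ (Nat.mul_le_mul (by norm_num) h2)

end Vale.Agent.Lib.P309
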