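import Vale.Agent.Lib.P309.Model

namespace Vale.Agent.Lib.P309

open MeasureTheory ProbabilityTheory
open scoped ENNReal

/-- State of the deterministic learner with transition function `f` and initial state `m0`
after it has read the first `t` pairs of the data sequence `z`. -/
def detState {d M : ℕ} (f : Fin (2 ^ M) × (Vec d × ℝ) → Fin (2 ^ M)) (m0 : Fin (2 ^ M))
    (z : ℕ → Vec d × ℝ) : ℕ → Fin (2 ^ M)
  | 0 => m0
  | t + 1 => f (detState f m0 z t, z t)

/-- The deterministic learner with initial state `m0`, transition function `f` at every index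
(it never stops before the horizon) and output function `g`. -/
noncomputable def detLearner {d M : ℕ} (f : Fin (2 ^ M) × (Vec d × ℝ) → Fin (2 ^ M))
    (hf : Measurable f) (m0 : Fin (2 ^ M)) (g : Fin (2 ^ M) → Sph d) : Learner d M where
  init := Measure.dirac m0
  init_prob := Measure.dirac.isProbabilityMeasure
  step := fun _ => Kernel.deterministic (fun p => (f p, false)) (hf.prodMk measurable_const)
  step_markov := fun _ => Kernel.isMarkovKernel_deterministic _
  out := Kernel.deterministic g (measurable_of_finite g)
  out_markov := Kernel.isMarkovKernel_deterministic _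

/-- Metric projection onto the closed unit ball. -/
noncomputable def clipBall {d : ℕ} (w : Vec d) : Vec d := if ‖w‖ ≤ 1 then w else ‖w‖⁻¹ • w

/-- The Kaczmarz update of the vector `v` with the pair `p = (x, y)` (projection of `v` onto
the hyperplane of the points `u` with `inner x u = y`), followed by the projection onto the
closed unit ball. -/
noncomputable def kzUpd {d : ℕ} (v : Vec d) (p : Vec d × ℝ) : Vec d :=
  clipBall (v + ((p.2 - inner ℝ p.1 v) / ‖p.1‖ ^ 2) • p.1)

/-- Transition function of the quantized Kaczmarz learner: decode the state, update with the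
pair, encode the result. -/
noncomputable def kzF {d M : ℕ} (dec : Fin (2 ^ M) → Vec d) (enc : Vec d → Fin (2 ^ M))
    (q : Fin (2 ^ M) × (Vec d × ℝ)) : Fin (2 ^ M) :=
  enc (kzUpd (dec q.1) q.2)

/-- The point of the unit sphere in the direction of `v` (a fixed point if `v = 0`). -/
noncomputable def normSph {d : ℕ} (hd : 1 ≤ d) (v : Vec d) : Sph d :=
  if h : v = 0 then ⟨EuclideanSpace.single (⟨0, hd⟩ : Fin d) (1 : ℝ), by simp⟩
  else ⟨‖v‖⁻¹ • v, by
    rw [mem_sphere_zero_iff_norm, norm_smul, norm_inv, norm_norm]
    exact inv_mul_cancel₀ (norm_ne_zero_iff.mpr h)⟩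

/-- The quantized Kaczmarz learner: the state is the code of a vector of the closed unit ball,
initially the code of `0`; each pair is used for one Kaczmarz update; the output is the
direction of the decoded state. -/
noncomputable def kzLearner {d M : ℕ} (hd : 1 ≤ d) (dec : Fin (2 ^ M) → Vec d)
    (enc : Vec d → Fin (2 ^ M)) (hf : Measurable (kzF dec enc)) : Learner d M :=
  detLearner (kzF dec enc) hf (enc 0) (fun m => normSph hd (dec m))

end Vale.Agent.Lib.P309
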