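import Vale.Agent.Lib.P309.Cut
import Vale.Agent.Lib.P309.Kz.Defs

namespace Vale.Agent.Lib.P309

open MeasureTheory ProbabilityTheory
open scoped ENNReal

/-- The law of the (state, flag) pair of a deterministic learner is a Dirac mass. -/
theorem kzDet_runOn {d M : ℕ} (f : Fin (2 ^ M) × (Vec d × ℝ) → Fin (2 ^ M))
    (hf : Measurable f) (m0 : Fin (2 ^ M)) (g : Fin (2 ^ M) → Sph d) (z : ℕ → Vec d × ℝ)
    (t : ℕ) :
    (detLearner f hf m0 g).runOn z t = Measure.dirac (detState f m0 z t, false) := by
  induction t with
  | zero =>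
    show (Measure.dirac m0).map (fun j => (j, false)) = Measure.dirac (m0, false)
    exact Measure.map_dirac' (measurable_of_finite _) m0
  | succ t ih =>
    rw [Learner.runOn_succ, ih, Measure.dirac_bind (measurable_of_finite _)]
    unfold Learner.stepF
    rw [if_neg (by simp)]
    exact Kernel.deterministic_apply (hf.prodMk measurable_const) _

/-- The output law of a deterministic learner is a Dirac mass. -/
theorem kzDet_outputLaw {d M : ℕ} (f : Fin (2 ^ M) × (Vec d × ℝ) → Fin (2 ^ M))
    (hf : Measurable f) (m0 : Fin (2 ^ M)) (g : Fin (2 ^ M) → Sph d) (z : ℕ → Vec d × ℝ)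
    (T : ℕ) :
    (detLearner f hf m0 g).outputLaw T z = Measure.dirac (g (detState f m0 z T)) := by
  unfold Learner.outputLaw
  rw [kzDet_runOn, Measure.map_dirac' measurable_fst,
    Measure.dirac_bind (Kernel.measurable _)]
  exact Kernel.deterministic_apply (measurable_of_finite g) _

/-- Success probability of a deterministic learner: the probability, over the uniform signal
and the Gaussian rows, that the output computed from the state after `T` pairs is within angle
`ε` of the signal. -/
theorem detLearner_successProb {d M : ℕ} (f : Fin (2 ^ M) × (Vec d × ℝ) → Fin (2 ^ M))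
    (hf : Measurable f) (m0 : Fin (2 ^ M)) (g : Fin (2 ^ M) → Sph d) (T : ℕ) (ε : ℝ) :
    (detLearner f hf m0 g).successProb T ε
      = ∫⁻ s : Sph d, ∫⁻ X : ℕ → Vec d,
          (goodOutputs d ε s).indicator (fun _ => (1 : ℝ≥0∞))
            (g (detState f m0 (fun t => (X t, inner ℝ (X t) (s : Vec d))) T))
        ∂(Measure.infinitePi (fun _ : ℕ => stdGaussian (Vec d))) ∂(uniformSphere d) := by
  have hgm : ∀ s : Sph d, MeasurableSet (goodOutputs d ε s) := by
    intro s
    have hgood : goodOutputs d ε s = Prod.mk s ⁻¹' {q : Sph d × Sph d |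
        InnerProductGeometry.angle (q.2 : Vec d) (q.1 : Vec d) ≤ ε} := rfl
    rw [hgood]
    exact measurable_prodMk_left (measurableSet_anglePairs d ε)
  unfold Learner.successProb
  refine lintegral_congr (fun s => lintegral_congr (fun X => ?_))
  rw [kzDet_outputLaw, Measure.dirac_apply' _ (hgm s)]
  rfl

end Vale.Agent.Lib.P309
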