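import Vale.Agent.Lib.P309.Model

namespace Vale.Agent.Lib.P309

open MeasureTheory ProbabilityTheory
open scoped ENNReal

/-- Index of the cell of width `2 / 2^m` of the interval `[-1, 1]` containing `t`. -/
noncomputable def kzQuant_cell (m : ℕ) (t : ℝ) : Fin (2 ^ m) :=
  ⟨min ⌊(t + 1) * 2 ^ m / 2⌋₊ (2 ^ m - 1),
    lt_of_le_of_lt (min_le_right _ _) (Nat.sub_lt (Nat.two_pow_pos m) Nat.one_pos)⟩

/-- Midpoint of a cell. -/
noncomputable def kzQuant_val (m : ℕ) (k : Fin (2 ^ m)) : ℝ := -1 + (2 * (k : ℝ) + 1) / 2 ^ m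

theorem kzQuant_cell_meas (m : ℕ) : Measurable (kzQuant_cell m) := by
  have hg : Measurable (fun n : ℕ => (⟨min n (2 ^ m - 1),
      lt_of_le_of_lt (min_le_right _ _) (Nat.sub_lt (Nat.two_pow_pos m) Nat.one_pos)⟩ :
      Fin (2 ^ m))) := measurable_from_nat
  have hf : Measurable (fun t : ℝ => ⌊(t + 1) * 2 ^ m / 2⌋₊) :=
    Nat.measurable_floor.comp (by fun_prop)
  exact hg.comp hf

/-- The midpoint of the cell of `t` is within half a cell width of `t`. -/
theorem kzQuant_err (m : ℕ) (t : ℝ) (ht : |t| ≤ 1) :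
    |kzQuant_val m (kzQuant_cell m t) - t| ≤ 1 / 2 ^ m := by
  have hN : (0 : ℝ) < 2 ^ m := by positivity
  obtain ⟨h1, h2⟩ := abs_le.mp ht
  obtain ⟨u, hu⟩ : ∃ u : ℝ, u = (t + 1) * 2 ^ m / 2 := ⟨_, rfl⟩
  have hu0 : 0 ≤ u := by
    rw [hu]
    have : 0 ≤ (t + 1) * 2 ^ m := mul_nonneg (by linarith) hN.le
    linarith
  have huN : u ≤ 2 ^ m := by
    rw [hu]
    have : (t + 1) * 2 ^ m ≤ 2 * 2 ^ m := mul_le_mul_of_nonneg_right (by linarith) hN.le
    linarith
  have hkv : ((kzQuant_cell m t : Fin (2 ^ m)) : ℕ) = min ⌊u⌋₊ (2 ^ m - 1) := by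
    rw [hu]
    rfl
  have hk1 : (((kzQuant_cell m t : Fin (2 ^ m)) : ℕ) : ℝ) ≤ u := by
    rw [hkv]
    exact le_trans (Nat.cast_le.mpr (min_le_left _ _)) (Nat.floor_le hu0)
  have hk2 : u ≤ (((kzQuant_cell m t : Fin (2 ^ m)) : ℕ) : ℝ) + 1 := by
    rw [hkv]
    rcases min_choice ⌊u⌋₊ (2 ^ m - 1) with h | h
    · rw [h]
      exact (Nat.lt_floor_add_one u).le
    · rw [h, Nat.cast_sub Nat.one_le_two_pow]
      push_cast
      linarith
  have e : kzQuant_val m (kzQuant_cell m t) - t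
      = (2 * (((kzQuant_cell m t : Fin (2 ^ m)) : ℕ) : ℝ) + 1 - 2 * u) / 2 ^ m := by
    unfold kzQuant_val
    rw [hu]
    field_simp
    ring
  rw [e, abs_div, abs_of_pos hN, div_le_div_iff_of_pos_right hN, abs_le]
  constructor <;> linarith

/-- A quantizer of the closed unit ball of `ℝ^d` with `m` bits per coordinate: codes in
`Fin (2 ^ M)` for any `M ≥ m d`, a measurable encoder, and error at most `√d / 2^m` on the
closed unit ball. -/
theorem kz_quant (d m M : ℕ) (hM : m * d ≤ M) :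
    ∃ (dec : Fin (2 ^ M) → Vec d) (enc : Vec d → Fin (2 ^ M)), Measurable enc ∧
      ∀ w : Vec d, ‖w‖ ≤ 1 → ‖dec (enc w) - w‖ ≤ Real.sqrt d / 2 ^ m := by
  have hcard : Fintype.card (Fin d → Fin (2 ^ m)) ≤ Fintype.card (Fin (2 ^ M)) := by
    rw [Fintype.card_fun, Fintype.card_fin, Fintype.card_fin, Fintype.card_fin, ← pow_mul]
    exact Nat.pow_le_pow_right (by norm_num) hM
  obtain ⟨ι⟩ := Function.Embedding.nonempty_of_card_le hcard
  have hne : Nonempty (Fin d → Fin (2 ^ m)) := ⟨fun _ => ⟨0, Nat.two_pow_pos m⟩⟩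
  have hinv : ∀ κ, Function.invFun ι (ι κ) = κ := Function.leftInverse_invFun ι.injective
  refine ⟨fun j => WithLp.toLp 2 (fun i => kzQuant_val m (Function.invFun ι j i)),
    fun w => ι (fun i => kzQuant_cell m (w i)), ?_, ?_⟩
  · have h1 : Measurable (fun w : Vec d => fun i => kzQuant_cell m (w i)) :=
      measurable_pi_lambda _ (fun i =>
        (kzQuant_cell_meas m).comp ((EuclideanSpace.proj i).continuous.measurable))
    have h2 : Measurable (ι : (Fin d → Fin (2 ^ m)) → Fin (2 ^ M)) := measurable_of_countable _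
    exact h2.comp h1
  · intro w hw
    have hN : (0 : ℝ) < 2 ^ m := by positivity
    beta_reduce
    rw [hinv, EuclideanSpace.norm_eq]
    refine Real.sqrt_le_iff.mpr ⟨by positivity, ?_⟩
    rw [div_pow, Real.sq_sqrt (Nat.cast_nonneg d)]
    have hterm : ∀ i ∈ Finset.univ,
        ‖(WithLp.toLp 2 (fun i => kzQuant_val m (kzQuant_cell m (w i))) - w : Vec d) i‖ ^ 2
          ≤ (1 / 2 ^ m) ^ 2 := by
      intro i _
      have hwi : |w i| ≤ 1 := by
        have h := PiLp.norm_apply_le w i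
        rw [Real.norm_eq_abs] at h
        exact le_trans h hw
      have herr := kzQuant_err m (w i) hwi
      have hval : (WithLp.toLp 2 (fun i => kzQuant_val m (kzQuant_cell m (w i))) - w : Vec d) i
          = kzQuant_val m (kzQuant_cell m (w i)) - w i := rfl
      rw [hval, Real.norm_eq_abs, sq_abs]
      calc (kzQuant_val m (kzQuant_cell m (w i)) - w i) ^ 2
          = |kzQuant_val m (kzQuant_cell m (w i)) - w i| ^ 2 := (sq_abs _).symm
        _ ≤ (1 / 2 ^ m) ^ 2 := pow_le_pow_left₀ (abs_nonneg _) herr 2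
    calc ∑ i, ‖(WithLp.toLp 2 (fun i => kzQuant_val m (kzQuant_cell m (w i))) - w : Vec d) i‖ ^ 2
        ≤ ∑ _i : Fin d, (1 / 2 ^ m : ℝ) ^ 2 := Finset.sum_le_sum hterm
      _ = (d : ℝ) / (2 ^ m) ^ 2 := by
        rw [Finset.sum_const, Finset.card_univ, Fintype.card_fin, nsmul_eq_mul]
        field_simp

end Vale.Agent.Lib.P309
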