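import Vale.Agent.Lib.P309.Kz.Peel

namespace Vale.Agent.Lib.P309

open MeasureTheory ProbabilityTheory
open scoped ENNReal

/-- Lyapunov recursion for a deterministic learner on i.i.d. Gaussian rows with exact labels:
if one step maps the mean of the nonnegative potential `Φ` from `Φ m` to at most `q Φ m + ρ`,
then after `T` steps the mean potential is at most `q^T Φ m0 + ρ (1 + q + ... + q^(T-1))`. -/
theorem kz_rec {d M : ℕ} (f : Fin (2 ^ M) × (Vec d × ℝ) → Fin (2 ^ M)) (hf : Measurable f)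
    (s : Sph d) (Φ : Fin (2 ^ M) → ℝ) (hΦ : ∀ m, 0 ≤ Φ m) (q ρ : ℝ) (hq : 0 ≤ q) (hρ : 0 ≤ ρ)
    (hstep : ∀ m : Fin (2 ^ M),
      ∫⁻ x : Vec d, ENNReal.ofReal (Φ (f (m, (x, inner ℝ x (s : Vec d)))))
        ∂(stdGaussian (Vec d)) ≤ ENNReal.ofReal (q * Φ m + ρ))
    (T : ℕ) (m0 : Fin (2 ^ M)) :
    ∫⁻ X : ℕ → Vec d,
        ENNReal.ofReal (Φ (detState f m0 (fun t => (X t, inner ℝ (X t) (s : Vec d))) T))
        ∂(Measure.infinitePi (fun _ : ℕ => stdGaussian (Vec d)))
      ≤ ENNReal.ofReal (q ^ T * Φ m0 + ρ * ∑ i ∈ Finset.range T, q ^ i) := by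
  induction T generalizing m0 with
  | zero =>
    show ∫⁻ _ : ℕ → Vec d, ENNReal.ofReal (Φ m0)
        ∂(Measure.infinitePi (fun _ : ℕ => stdGaussian (Vec d))) ≤ _
    rw [lintegral_const, measure_univ, mul_one, pow_zero, one_mul, Finset.range_zero,
      Finset.sum_empty, mul_zero, add_zero]
  | succ T ih =>
    have hS : 0 ≤ ρ * ∑ i ∈ Finset.range T, q ^ i :=
      mul_nonneg hρ (Finset.sum_nonneg fun i _ => pow_nonneg hq i)
    have hqT : 0 ≤ q ^ T := pow_nonneg hq T
    rw [kz_peel f hf s (fun m => ENNReal.ofReal (Φ m)) m0 T]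
    calc ∫⁻ x : Vec d, ∫⁻ X : ℕ → Vec d,
            ENNReal.ofReal (Φ (detState f (f (m0, (x, inner ℝ x (s : Vec d))))
              (fun t => (X t, inner ℝ (X t) (s : Vec d))) T))
            ∂(Measure.infinitePi (fun _ : ℕ => stdGaussian (Vec d))) ∂(stdGaussian (Vec d))
        ≤ ∫⁻ x : Vec d, (ENNReal.ofReal (q ^ T)
              * ENNReal.ofReal (Φ (f (m0, (x, inner ℝ x (s : Vec d)))))
            + ENNReal.ofReal (ρ * ∑ i ∈ Finset.range T, q ^ i)) ∂(stdGaussian (Vec d)) := by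
          refine lintegral_mono fun x => ?_
          refine (ih (f (m0, (x, inner ℝ x (s : Vec d))))).trans_eq ?_
          rw [ENNReal.ofReal_add (mul_nonneg hqT (hΦ _)) hS, ENNReal.ofReal_mul hqT]
      _ = ENNReal.ofReal (q ^ T)
            * ∫⁻ x : Vec d, ENNReal.ofReal (Φ (f (m0, (x, inner ℝ x (s : Vec d)))))
              ∂(stdGaussian (Vec d))
            + ENNReal.ofReal (ρ * ∑ i ∈ Finset.range T, q ^ i) := by
          rw [lintegral_add_right _ measurable_const,
            lintegral_const_mul' _ _ ENNReal.ofReal_ne_top, lintegral_const, measure_univ,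
            mul_one]
      _ ≤ ENNReal.ofReal (q ^ T) * ENNReal.ofReal (q * Φ m0 + ρ)
            + ENNReal.ofReal (ρ * ∑ i ∈ Finset.range T, q ^ i) := by
          gcongr
          exact hstep m0
      _ = ENNReal.ofReal (q ^ (T + 1) * Φ m0 + ρ * ∑ i ∈ Finset.range (T + 1), q ^ i) := by
          rw [← ENNReal.ofReal_mul hqT, ← ENNReal.ofReal_add
            (mul_nonneg hqT (add_nonneg (mul_nonneg hq (hΦ m0)) hρ)) hS]
          congr 1
          rw [Finset.sum_range_succ]
          ring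

end Vale.Agent.Lib.P309
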