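import Vale.Agent.Lib.P309.Kz.Defs

namespace Vale.Agent.Lib.P309

open MeasureTheory ProbabilityTheory
open scoped ENNReal

/-- The projection onto the closed unit ball has norm at most one. -/
theorem norm_clipBall_le {d : ℕ} (w : Vec d) : ‖clipBall w‖ ≤ 1 := by
  unfold clipBall
  split_ifs with h
  · exact h
  · have hn : ‖w‖ ≠ 0 := by
      intro h0
      apply h
      rw [h0]
      exact zero_le_one
    rw [norm_smul, norm_inv, norm_norm, inv_mul_cancel₀ hn]

/-- The projection onto the closed unit ball does not increase the distance to a point of the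
closed unit ball. -/
theorem norm_clipBall_sub_le {d : ℕ} (w s : Vec d) (hs : ‖s‖ ≤ 1) :
    ‖clipBall w - s‖ ≤ ‖w - s‖ := by
  unfold clipBall
  split_ifs with h
  · exact le_refl _
  · have hn : 1 < ‖w‖ := lt_of_not_ge h
    have hn0 : ‖w‖ ≠ 0 := by positivity
    have ht : ‖w‖⁻¹ * ‖w‖ = 1 := inv_mul_cancel₀ hn0
    have ht1 : ‖w‖⁻¹ ≤ 1 := inv_le_one_of_one_le₀ hn.le
    have hc : inner ℝ w s ≤ ‖w‖ := by
      have h1 : inner ℝ w s ≤ ‖w‖ * ‖s‖ := real_inner_le_norm w s
      have h2 : ‖w‖ * ‖s‖ ≤ ‖w‖ * 1 := mul_le_mul_of_nonneg_left hs (norm_nonneg w)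
      linarith
    rw [← sq_le_sq₀ (norm_nonneg _) (norm_nonneg _), norm_sub_sq_real, norm_sub_sq_real,
      real_inner_smul_left, norm_smul, norm_inv, norm_norm, ht]
    have h3 : inner ℝ w s * (1 - ‖w‖⁻¹) ≤ ‖w‖ * (1 - ‖w‖⁻¹) :=
      mul_le_mul_of_nonneg_right hc (by linarith)
    have h4 : ‖w‖ * ‖w‖⁻¹ = 1 := by rw [mul_comm]; exact ht
    nlinarith [sq_nonneg (‖w‖ - 1)]

/-- The clipped Kaczmarz update stays in the closed unit ball. -/
theorem norm_kzUpd_le {d : ℕ} (v : Vec d) (p : Vec d × ℝ) : ‖kzUpd v p‖ ≤ 1 := by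
  unfold kzUpd
  exact norm_clipBall_le _

/-- Exact labels: the clipped Kaczmarz update removes from the error `v - s` its component
along the row `x`. -/
theorem norm_kzUpd_sub_sq_le {d : ℕ} (v x s : Vec d) (hs : ‖s‖ ≤ 1) :
    ‖kzUpd v (x, inner ℝ x s) - s‖ ^ 2 ≤ ‖v - s‖ ^ 2 - (inner ℝ x (v - s)) ^ 2 / ‖x‖ ^ 2 := by
  have h1 : ‖kzUpd v (x, inner ℝ x s) - s‖
      ≤ ‖v + ((inner ℝ x s - inner ℝ x v) / ‖x‖ ^ 2) • x - s‖ := by
    unfold kzUpd
    exact norm_clipBall_sub_le _ s hs
  have h2 : ‖kzUpd v (x, inner ℝ x s) - s‖ ^ 2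
      ≤ ‖v + ((inner ℝ x s - inner ℝ x v) / ‖x‖ ^ 2) • x - s‖ ^ 2 :=
    pow_le_pow_left₀ (norm_nonneg _) h1 2
  have h3 : v + ((inner ℝ x s - inner ℝ x v) / ‖x‖ ^ 2) • x - s
      = (v - s) - (inner ℝ x (v - s) / ‖x‖ ^ 2) • x := by
    have e : (inner ℝ x s - inner ℝ x v) / ‖x‖ ^ 2 = -(inner ℝ x (v - s) / ‖x‖ ^ 2) := by
      rw [inner_sub_right]
      ring
    rw [e, neg_smul]
    abel
  have h4 : ‖(v - s) - (inner ℝ x (v - s) / ‖x‖ ^ 2) • x‖ ^ 2
      = ‖v - s‖ ^ 2 - (inner ℝ x (v - s)) ^ 2 / ‖x‖ ^ 2 := by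
    rw [norm_sub_sq_real, real_inner_smul_right, norm_smul, mul_pow, Real.norm_eq_abs, sq_abs,
      real_inner_comm (v - s) x]
    by_cases hx : ‖x‖ ^ 2 = 0
    · rw [hx]
      simp
    · field_simp
      ring
  rw [h3, h4] at h2
  exact h2

/-- The projection onto the closed unit ball is measurable. -/
theorem kzGeom_measurable_clipBall {d : ℕ} : Measurable (fun w : Vec d => clipBall w) := by
  unfold clipBall
  exact Measurable.ite (measurableSet_le measurable_norm measurable_const) measurable_id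
    (measurable_norm.inv.smul measurable_id)

/-- The update is measurable in the pair. -/
theorem measurable_kzUpd {d : ℕ} (v : Vec d) : Measurable (fun p : Vec d × ℝ => kzUpd v p) := by
  unfold kzUpd
  exact kzGeom_measurable_clipBall.comp
    (measurable_const.add
      (((measurable_snd.sub (measurable_fst.inner measurable_const)).div
        (measurable_fst.norm.pow_const 2)).smul measurable_fst))

/-- The transition function of the quantized Kaczmarz learner is measurable. -/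
theorem measurable_kzF {d M : ℕ} (dec : Fin (2 ^ M) → Vec d) (enc : Vec d → Fin (2 ^ M))
    (henc : Measurable enc) : Measurable (kzF dec enc) := by
  apply measurable_from_prod_countable_right
  intro m
  exact henc.comp (measurable_kzUpd (dec m))

end Vale.Agent.Lib.P309
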