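import Vale.Agent.Lib.P309.Kz.Gauss
import Vale.Agent.Lib.P309.Kz.Geom

namespace Vale.Agent.Lib.P309

open MeasureTheory ProbabilityTheory
open scoped ENNReal

/-- Real arithmetic behind the one-step bound. -/
theorem kzStep_arith (a b t E g ρ : ℝ) (h1 : b ≤ ρ) (h2 : t ^ 2 ≤ E ^ 2 - g)
    (h3 : a ≤ b + t) (hg : 0 ≤ g) (ht : 0 ≤ t) (hE : 0 ≤ E) :
    a ≤ (E + ρ) - (1 / (2 * E)) * g := by
  rcases hE.eq_or_lt with h0 | hpos
  · subst h0
    have ht0 : t = 0 := by nlinarith [sq_nonneg t]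
    simp only [mul_zero, div_zero, zero_mul, sub_zero, zero_add]
    linarith
  · have h5 : t ≤ E - (1 / (2 * E)) * g := by
      have h6 : t * (2 * E) ≤ 2 * E ^ 2 - g := by nlinarith [sq_nonneg (t - E)]
      have h7 : E - (1 / (2 * E)) * g = (2 * E ^ 2 - g) / (2 * E) := by
        field_simp
      rw [h7, le_div_iff₀ (by linarith)]
      exact h6
    linarith

/-- Pointwise bound for the distance to the signal after one step. -/
theorem kzStep_pointwise {d M : ℕ} (dec : Fin (2 ^ M) → Vec d) (enc : Vec d → Fin (2 ^ M))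
    (ρ : ℝ) (hρ : ∀ w : Vec d, ‖w‖ ≤ 1 → ‖dec (enc w) - w‖ ≤ ρ) (s : Sph d)
    (m : Fin (2 ^ M)) (x : Vec d) :
    ‖dec (kzF dec enc (m, (x, inner ℝ x (s : Vec d)))) - (s : Vec d)‖
      ≤ (‖dec m - (s : Vec d)‖ + ρ)
        - (1 / (2 * ‖dec m - (s : Vec d)‖))
          * ((inner ℝ x (dec m - (s : Vec d))) ^ 2 / ‖x‖ ^ 2) := by
  have hs : ‖(s : Vec d)‖ ≤ 1 := (mem_sphere_zero_iff_norm.mp s.2).le
  have hk : kzF dec enc (m, (x, inner ℝ x (s : Vec d)))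
      = enc (kzUpd (dec m) (x, inner ℝ x (s : Vec d))) := rfl
  rw [hk]
  have h1 : ‖dec (enc (kzUpd (dec m) (x, inner ℝ x (s : Vec d))))
      - kzUpd (dec m) (x, inner ℝ x (s : Vec d))‖ ≤ ρ := hρ _ (norm_kzUpd_le _ _)
  have h2 : ‖kzUpd (dec m) (x, inner ℝ x (s : Vec d)) - (s : Vec d)‖ ^ 2
      ≤ ‖dec m - (s : Vec d)‖ ^ 2 - (inner ℝ x (dec m - (s : Vec d))) ^ 2 / ‖x‖ ^ 2 :=
    norm_kzUpd_sub_sq_le (dec m) x (s : Vec d) hs
  have h3 : ‖dec (enc (kzUpd (dec m) (x, inner ℝ x (s : Vec d)))) - (s : Vec d)‖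
      ≤ ‖dec (enc (kzUpd (dec m) (x, inner ℝ x (s : Vec d))))
          - kzUpd (dec m) (x, inner ℝ x (s : Vec d))‖
        + ‖kzUpd (dec m) (x, inner ℝ x (s : Vec d)) - (s : Vec d)‖ :=
    norm_sub_le_norm_sub_add_norm_sub _ _ _
  have hg : 0 ≤ (inner ℝ x (dec m - (s : Vec d))) ^ 2 / ‖x‖ ^ 2 := by positivity
  exact kzStep_arith _ _ _ _ _ ρ h1 h2 h3 hg (norm_nonneg _) (norm_nonneg _)

/-- One step of the quantized Kaczmarz learner contracts the mean distance to the signal by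
the factor `1 - 1/(2d)`, up to the quantization error `ρ`. -/
theorem kz_step {d M : ℕ} (hd : 1 ≤ d) (dec : Fin (2 ^ M) → Vec d) (enc : Vec d → Fin (2 ^ M))
    (henc : Measurable enc) (ρ : ℝ) (hρ : ∀ w : Vec d, ‖w‖ ≤ 1 → ‖dec (enc w) - w‖ ≤ ρ)
    (s : Sph d) (m : Fin (2 ^ M)) :
    ∫⁻ x : Vec d,
        ENNReal.ofReal ‖dec (kzF dec enc (m, (x, inner ℝ x (s : Vec d)))) - (s : Vec d)‖
        ∂(stdGaussian (Vec d))
      ≤ ENNReal.ofReal ((1 - 1 / (2 * (d : ℝ))) * ‖dec m - (s : Vec d)‖ + ρ) := by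
  have _hmeas := measurable_kzF dec enc henc
  obtain ⟨hgi, hgv⟩ := kz_gauss hd (dec m - (s : Vec d))
  have hpt := kzStep_pointwise dec enc ρ hρ s m
  have hint : Integrable (fun x : Vec d => (‖dec m - (s : Vec d)‖ + ρ)
      - (1 / (2 * ‖dec m - (s : Vec d)‖))
        * ((inner ℝ x (dec m - (s : Vec d))) ^ 2 / ‖x‖ ^ 2)) (stdGaussian (Vec d)) :=
    (integrable_const _).sub (hgi.const_mul _)
  have hnn : 0 ≤ᵐ[stdGaussian (Vec d)] (fun x : Vec d => (‖dec m - (s : Vec d)‖ + ρ)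
      - (1 / (2 * ‖dec m - (s : Vec d)‖))
        * ((inner ℝ x (dec m - (s : Vec d))) ^ 2 / ‖x‖ ^ 2)) :=
    Filter.Eventually.of_forall (fun x => le_trans (norm_nonneg _) (hpt x))
  have hval : ∫ x : Vec d, ((‖dec m - (s : Vec d)‖ + ρ)
      - (1 / (2 * ‖dec m - (s : Vec d)‖))
        * ((inner ℝ x (dec m - (s : Vec d))) ^ 2 / ‖x‖ ^ 2)) ∂(stdGaussian (Vec d))
      = (1 - 1 / (2 * (d : ℝ))) * ‖dec m - (s : Vec d)‖ + ρ := by
    rw [integral_sub (integrable_const _) (hgi.const_mul _), integral_const_mul, hgv]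
    simp only [integral_const, probReal_univ, one_smul]
    have hd' : (d : ℝ) ≠ 0 := Nat.cast_ne_zero.mpr (by omega)
    rcases eq_or_ne ‖dec m - (s : Vec d)‖ 0 with h0 | h0
    · rw [h0]
      simp
    · field_simp
      ring
  calc ∫⁻ x : Vec d,
        ENNReal.ofReal ‖dec (kzF dec enc (m, (x, inner ℝ x (s : Vec d)))) - (s : Vec d)‖
        ∂(stdGaussian (Vec d))
      ≤ ∫⁻ x : Vec d, ENNReal.ofReal ((‖dec m - (s : Vec d)‖ + ρ)
          - (1 / (2 * ‖dec m - (s : Vec d)‖))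
            * ((inner ℝ x (dec m - (s : Vec d))) ^ 2 / ‖x‖ ^ 2)) ∂(stdGaussian (Vec d)) :=
        lintegral_mono (fun x => ENNReal.ofReal_le_ofReal (hpt x))
    _ = ENNReal.ofReal (∫ x : Vec d, ((‖dec m - (s : Vec d)‖ + ρ)
          - (1 / (2 * ‖dec m - (s : Vec d)‖))
            * ((inner ℝ x (dec m - (s : Vec d))) ^ 2 / ‖x‖ ^ 2)) ∂(stdGaussian (Vec d))) :=
        (ofReal_integral_eq_lintegral_ofReal hint hnn).symm
    _ = ENNReal.ofReal ((1 - 1 / (2 * (d : ℝ))) * ‖dec m - (s : Vec d)‖ + ρ) := by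
        rw [hval]

end Vale.Agent.Lib.P309
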