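import Vale.Agent.Lib.P309.Geo.Basic
import Vale.Agent.Lib.P309.Kz.Angle
import Vale.Agent.Lib.P309.Kz.Arith
import Vale.Agent.Lib.P309.Kz.Det
import Vale.Agent.Lib.P309.Kz.Quant
import Vale.Agent.Lib.P309.Kz.Rec
import Vale.Agent.Lib.P309.Kz.Step

namespace Vale.Agent.Lib.P309

open MeasureTheory ProbabilityTheory
open scoped ENNReal

/-- For a fixed signal, the quantized Kaczmarz learner outputs a point within angle `η` of the
signal with probability at least `2/3` over the rows, as soon as the contraction over `T` steps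
and the accumulated quantization error are below `η / 6`. -/
theorem kz_inner {d M : ℕ} (hd : 1 ≤ d) (dec : Fin (2 ^ M) → Vec d) (enc : Vec d → Fin (2 ^ M))
    (henc : Measurable enc) (ρ : ℝ) (hρ0 : 0 ≤ ρ)
    (hρ : ∀ w : Vec d, ‖w‖ ≤ 1 → ‖dec (enc w) - w‖ ≤ ρ) (s : Sph d) (T : ℕ) (η : ℝ)
    (hη : 0 < η) (hη1 : η ≤ 1)
    (hsmall : 2 * (1 - 1 / (2 * (d : ℝ))) ^ T + 2 * (d : ℝ) * ρ ≤ η / 6) :
    ENNReal.ofReal (2 / 3) ≤ ∫⁻ X : ℕ → Vec d,
      (goodOutputs d η s).indicator (fun _ => (1 : ℝ≥0∞))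
        (normSph hd (dec (detState (kzF dec enc) (enc 0)
          (fun t => (X t, inner ℝ (X t) (s : Vec d))) T)))
      ∂(Measure.infinitePi (fun _ : ℕ => stdGaussian (Vec d))) := by
  set P := Measure.infinitePi (fun _ : ℕ => stdGaussian (Vec d)) with hP
  have hf : Measurable (kzF dec enc) := measurable_kzF dec enc henc
  have hdR : (1 : ℝ) ≤ (d : ℝ) := by exact_mod_cast hd
  set q : ℝ := 1 - 1 / (2 * (d : ℝ)) with hq
  have hq0 : 0 ≤ q := by
    have h1 : 1 / (2 * (d : ℝ)) ≤ 1 := by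
      rw [div_le_one (by linarith)]
      linarith
    rw [hq]
    linarith
  set Φ : Fin (2 ^ M) → ℝ := fun m => ‖dec m - (s : Vec d)‖ with hΦ
  have hΦnn : ∀ m, 0 ≤ Φ m := fun m => norm_nonneg _
  have hrec := kz_rec (kzF dec enc) hf s Φ hΦnn q ρ hq0 hρ0
    (fun m => kz_step hd dec enc henc ρ hρ s m) T (enc 0)
  have hs1 : ‖(s : Vec d)‖ = 1 := mem_sphere_zero_iff_norm.mp s.2
  have hqT : 0 ≤ q ^ T := pow_nonneg hq0 T
  have hρ1 : ρ ≤ 1 := by nlinarith
  have hΦ0 : Φ (enc 0) ≤ 2 := by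
    have h1 : ‖dec (enc 0) - 0‖ ≤ ρ := hρ 0 (by simp)
    have h2 : Φ (enc 0) ≤ ‖dec (enc 0) - 0‖ + ‖(0 : Vec d) - (s : Vec d)‖ :=
      norm_sub_le_norm_sub_add_norm_sub _ _ _
    have h3 : ‖(0 : Vec d) - (s : Vec d)‖ = 1 := by
      rw [zero_sub, norm_neg, hs1]
    linarith
  have hgeo := kz_geom d T hd
  have hbound : q ^ T * Φ (enc 0) + ρ * ∑ i ∈ Finset.range T, q ^ i ≤ η / 6 := by
    have h1 : q ^ T * Φ (enc 0) ≤ q ^ T * 2 := mul_le_mul_of_nonneg_left hΦ0 hqT
    have h2 : ρ * ∑ i ∈ Finset.range T, q ^ i ≤ ρ * (2 * (d : ℝ)) :=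
      mul_le_mul_of_nonneg_left hgeo hρ0
    linarith
  set S : (ℕ → Vec d) → Fin (2 ^ M) := fun X =>
    detState (kzF dec enc) (enc 0) (fun t => (X t, inner ℝ (X t) (s : Vec d))) T with hS
  have hSm : Measurable S := measurable_detState (kzF dec enc) hf s (enc 0) T
  have hΦS : Measurable (fun X => ENNReal.ofReal (Φ (S X))) :=
    (measurable_of_finite (fun m : Fin (2 ^ M) => ENNReal.ofReal (Φ m))).comp hSm
  set A : Set (ℕ → Vec d) := {X | ENNReal.ofReal (η / 2) ≤ ENNReal.ofReal (Φ (S X))} with hA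
  have hη2 : (0 : ℝ) < η / 2 := by linarith
  have hmarkov : P A ≤ (∫⁻ X, ENNReal.ofReal (Φ (S X)) ∂P) / ENNReal.ofReal (η / 2) :=
    meas_ge_le_lintegral_div hΦS.aemeasurable (by simpa using hη2) ENNReal.ofReal_ne_top
  have hbad : P A ≤ ENNReal.ofReal (1 / 3) := by
    refine hmarkov.trans ?_
    calc (∫⁻ X, ENNReal.ofReal (Φ (S X)) ∂P) / ENNReal.ofReal (η / 2)
        ≤ ENNReal.ofReal (η / 6) / ENNReal.ofReal (η / 2) :=
          ENNReal.div_le_div_right (hrec.trans (ENNReal.ofReal_le_ofReal hbound)) _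
      _ = ENNReal.ofReal ((η / 6) / (η / 2)) := (ENNReal.ofReal_div_of_pos hη2).symm
      _ = ENNReal.ofReal (1 / 3) := by
          congr 1
          field_simp
          norm_num
  have hAm : MeasurableSet A := measurableSet_le measurable_const hΦS
  have hsub : Aᶜ ⊆ {X | normSph hd (dec (S X)) ∈ goodOutputs d η s} := by
    intro X hX
    have hX' : ¬ (ENNReal.ofReal (η / 2) ≤ ENNReal.ofReal (Φ (S X))) := hX
    have hlt : Φ (S X) < η / 2 := by
      by_contra hcon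
      exact hX' (ENNReal.ofReal_le_ofReal (not_lt.mp hcon))
    exact kz_angle hd (dec (S X)) s η hη hη1 hlt.le
  have hcompl : ENNReal.ofReal (2 / 3) ≤ P Aᶜ := by
    rw [prob_compl_eq_one_sub hAm]
    have h1 : (1 : ℝ≥0∞) - ENNReal.ofReal (1 / 3) ≤ 1 - P A := tsub_le_tsub_left hbad 1
    refine le_trans (le_of_eq ?_) h1
    rw [← ENNReal.ofReal_one, ← ENNReal.ofReal_sub _ (by norm_num)]
    congr 1
    norm_num
  have hGm : MeasurableSet {X | normSph hd (dec (S X)) ∈ goodOutputs d η s} :=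
    hSm (Set.toFinite {m : Fin (2 ^ M) | normSph hd (dec m) ∈ goodOutputs d η s}).measurableSet
  calc ENNReal.ofReal (2 / 3) ≤ P Aᶜ := hcompl
    _ ≤ P {X | normSph hd (dec (S X)) ∈ goodOutputs d η s} := measure_mono hsub
    _ = ∫⁻ X, ({X | normSph hd (dec (S X)) ∈ goodOutputs d η s}).indicator
          (fun _ => (1 : ℝ≥0∞)) X ∂P := by
        rw [lintegral_indicator hGm, setLIntegral_const, one_mul]
    _ = ∫⁻ X : ℕ → Vec d, (goodOutputs d η s).indicator (fun _ => (1 : ℝ≥0∞))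
          (normSph hd (dec (S X))) ∂P := by
        refine lintegral_congr (fun X => ?_)
        by_cases hX : normSph hd (dec (S X)) ∈ goodOutputs d η s
        · rw [Set.indicator_of_mem hX, Set.indicator_of_mem (by exact hX)]
        · rw [Set.indicator_of_notMem hX, Set.indicator_of_notMem (by exact hX)]

/-- Upper bound: with `m` bits per coordinate, `24 d^2 2^b ≤ 2^m`, memory `M ≥ m d` and horizon
`T ≥ 2 d (b + 5)`, the quantized Kaczmarz learner succeeds with probability at least `2/3` at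
every accuracy `ε ≥ 2^(-b)`. -/
theorem kz_upper (d b m M T : ℕ) (ε : ℝ) (hd : 1 ≤ d) (hm : 24 * d ^ 2 * 2 ^ b ≤ 2 ^ m)
    (hM : m * d ≤ M) (hT : 2 * d * (b + 5) ≤ T) (hε : (1 / 2) ^ b ≤ ε) :
    ∃ L : Learner d M, ENNReal.ofReal (2 / 3) ≤ L.successProb T ε := by
  obtain ⟨dec, enc, henc, hρ⟩ := kz_quant d m M hM
  have hf : Measurable (kzF dec enc) := measurable_kzF dec enc henc
  refine ⟨kzLearner hd dec enc hf, ?_⟩
  unfold kzLearner
  rw [detLearner_successProb]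
  have hprob : IsProbabilityMeasure (uniformSphere d) := ⟨uniformSphere_univ hd⟩
  set η : ℝ := (1 / 2) ^ b with hη
  have hη0 : 0 < η := by positivity
  have hη1 : η ≤ 1 := pow_le_one₀ (by norm_num) (by norm_num)
  have hρ0 : 0 ≤ Real.sqrt d / 2 ^ m := by positivity
  have hpow := kz_pow_le d b T hd hT
  have hrho := kz_rho d b m hd hm
  have hsmall : 2 * (1 - 1 / (2 * (d : ℝ))) ^ T + 2 * (d : ℝ) * (Real.sqrt d / 2 ^ m)
      ≤ η / 6 := by
    have h1 : ((1 : ℝ) / 2) ^ (b + 5) = η / 32 := by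
      rw [hη, pow_add]
      ring
    rw [h1] at hpow
    linarith
  have hinner : ∀ s : Sph d, ENNReal.ofReal (2 / 3) ≤ ∫⁻ X : ℕ → Vec d,
      (goodOutputs d ε s).indicator (fun _ => (1 : ℝ≥0∞))
        (normSph hd (dec (detState (kzF dec enc) (enc 0)
          (fun t => (X t, inner ℝ (X t) (s : Vec d))) T)))
      ∂(Measure.infinitePi (fun _ : ℕ => stdGaussian (Vec d))) := by
    intro s
    refine (kz_inner hd dec enc henc _ hρ0 hρ s T η hη0 hη1 hsmall).trans ?_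
    refine lintegral_mono (fun X => ?_)
    refine Set.indicator_le_indicator_of_subset ?_ (fun _ => zero_le_one) _
    intro v hv
    exact le_trans hv hε
  calc ENNReal.ofReal (2 / 3) = ∫⁻ _ : Sph d, ENNReal.ofReal (2 / 3) ∂(uniformSphere d) := by
        rw [lintegral_const, measure_univ, mul_one]
    _ ≤ _ := lintegral_mono hinner

/-- Upper bound with an explicit memory size: `M ≥ d (b + 2 ⌈log₂ d⌉ + 5)` bits and horizon
`T ≥ 2 d (b + 5)` are enough for accuracy `ε ≥ 2^(-b)`. -/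
theorem kz_upper_clog (d b M T : ℕ) (ε : ℝ) (hd : 1 ≤ d)
    (hM : d * (b + 2 * Nat.clog 2 d + 5) ≤ M) (hT : 2 * d * (b + 5) ≤ T)
    (hε : (1 / 2) ^ b ≤ ε) :
    ∃ L : Learner d M, ENNReal.ofReal (2 / 3) ≤ L.successProb T ε :=
  kz_upper d b (b + 2 * Nat.clog 2 d + 5) M T ε hd (kz_clog d b)
    (by rw [Nat.mul_comm]; exact hM) hT hε

end Vale.Agent.Lib.P309
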