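import Vale.Agent.Lib.P309.Multi.Spokes

namespace Vale.Agent.Lib.P309

open MeasureTheory ProbabilityTheory
open scoped ENNReal

/-- The integrand is bounded by `‖e‖^2`. -/
theorem kzGauss_bound {d : ℕ} (e x : Vec d) : |(inner ℝ x e) ^ 2 / ‖x‖ ^ 2| ≤ ‖e‖ ^ 2 := by
  have h1 : (inner ℝ x e) ^ 2 ≤ ‖x‖ ^ 2 * ‖e‖ ^ 2 := by
    have h := abs_real_inner_le_norm x e
    have h2 : |inner ℝ x e| ^ 2 ≤ (‖x‖ * ‖e‖) ^ 2 := pow_le_pow_left₀ (abs_nonneg _) h 2
    rw [sq_abs, mul_pow] at h2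
    exact h2
  rw [abs_of_nonneg (div_nonneg (sq_nonneg _) (sq_nonneg _))]
  rcases eq_or_ne x 0 with hx | hx
  · have h0 : (inner ℝ (0 : Vec d) e) ^ 2 / ‖(0 : Vec d)‖ ^ 2 = 0 := by
      rw [inner_zero_left]
      simp
    rw [hx, h0]
    positivity
  · have hpos : 0 < ‖x‖ ^ 2 := pow_pos (norm_pos_iff.mpr hx) 2
    rw [div_le_iff₀ hpos]
    linarith

/-- The integrand is measurable. -/
theorem kzGauss_meas {d : ℕ} (e : Vec d) :
    Measurable (fun x : Vec d => (inner ℝ x e) ^ 2 / ‖x‖ ^ 2) :=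
  ((measurable_id.inner measurable_const).pow_const 2).div (measurable_norm.pow_const 2)

/-- The integrand is integrable. -/
theorem kzGauss_integrable {d : ℕ} (e : Vec d) :
    Integrable (fun x : Vec d => (inner ℝ x e) ^ 2 / ‖x‖ ^ 2) (stdGaussian (Vec d)) :=
  Integrable.of_bound (kzGauss_meas e).aestronglyMeasurable (‖e‖ ^ 2)
    (Filter.Eventually.of_forall fun x => by
      rw [Real.norm_eq_abs]
      exact kzGauss_bound e x)

/-- Invariance of the mean under a linear isometry applied to `e`. -/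
theorem kzGauss_map {d : ℕ} (R : Vec d ≃ₗᵢ[ℝ] Vec d) (e : Vec d) :
    ∫ x : Vec d, (inner ℝ x (R e)) ^ 2 / ‖x‖ ^ 2 ∂(stdGaussian (Vec d)) =
      ∫ x : Vec d, (inner ℝ x e) ^ 2 / ‖x‖ ^ 2 ∂(stdGaussian (Vec d)) := by
  have hR : (stdGaussian (Vec d)).map R = stdGaussian (Vec d) := stdGaussian_map R
  have hm : Measurable (R : Vec d → Vec d) := R.continuous.measurable
  calc ∫ x : Vec d, (inner ℝ x (R e)) ^ 2 / ‖x‖ ^ 2 ∂(stdGaussian (Vec d))
      = ∫ x : Vec d, (inner ℝ x (R e)) ^ 2 / ‖x‖ ^ 2 ∂((stdGaussian (Vec d)).map R) := by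
        rw [hR]
    _ = ∫ y : Vec d, (inner ℝ (R y) (R e)) ^ 2 / ‖R y‖ ^ 2 ∂(stdGaussian (Vec d)) :=
        integral_map hm.aemeasurable (kzGauss_meas (R e)).aestronglyMeasurable
    _ = ∫ x : Vec d, (inner ℝ x e) ^ 2 / ‖x‖ ^ 2 ∂(stdGaussian (Vec d)) := by
        congr 1
        funext y
        rw [LinearIsometryEquiv.inner_map_map, LinearIsometryEquiv.norm_map]

/-- The mean only depends on the norm of `e`. -/
theorem kzGauss_of_norm_eq {d : ℕ} (v w : Vec d) (h : ‖v‖ = ‖w‖) :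
    ∫ x : Vec d, (inner ℝ x v) ^ 2 / ‖x‖ ^ 2 ∂(stdGaussian (Vec d)) =
      ∫ x : Vec d, (inner ℝ x w) ^ 2 / ‖x‖ ^ 2 ∂(stdGaussian (Vec d)) := by
  have hr : (Submodule.span ℝ {v - w})ᗮ.reflection v = w := Submodule.reflection_sub h
  have hm := kzGauss_map ((Submodule.span ℝ {v - w})ᗮ.reflection) v
  rw [hr] at hm
  exact hm.symm

/-- The mean is homogeneous of degree two in `e`. -/
theorem kzGauss_smul {d : ℕ} (a : ℝ) (e : Vec d) :
    ∫ x : Vec d, (inner ℝ x (a • e)) ^ 2 / ‖x‖ ^ 2 ∂(stdGaussian (Vec d)) =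
      a ^ 2 * ∫ x : Vec d, (inner ℝ x e) ^ 2 / ‖x‖ ^ 2 ∂(stdGaussian (Vec d)) := by
  rw [← integral_const_mul]
  congr 1
  funext x
  rw [real_inner_smul_right]
  ring

/-- The means along the vectors of the standard basis add up to one. -/
theorem kzGauss_sum {d : ℕ} (hd : 1 ≤ d) :
    ∑ i : Fin d, ∫ x : Vec d, (inner ℝ x (EuclideanSpace.single i (1 : ℝ))) ^ 2 / ‖x‖ ^ 2
      ∂(stdGaussian (Vec d)) = 1 := by
  rw [← integral_finsetSum _ (fun i _ => kzGauss_integrable _)]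
  have hae : (fun x : Vec d => ∑ i : Fin d,
      (inner ℝ x (EuclideanSpace.single i (1 : ℝ))) ^ 2 / ‖x‖ ^ 2)
        =ᵐ[stdGaussian (Vec d)] fun _ => (1 : ℝ) := by
    have hs : (EuclideanSpace.single (⟨0, hd⟩ : Fin d) (1 : ℝ) : Vec d) ∈
        Metric.sphere (0 : Vec d) 1 := by
      rw [mem_sphere_zero_iff_norm, PiLp.norm_single, norm_one]
    filter_upwards [spokes_ae_ne_zero (⟨_, hs⟩ : Sph d)] with x hx
    have hpos : 0 < ‖x‖ ^ 2 := pow_pos (norm_pos_iff.mpr hx) 2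
    rw [← Finset.sum_div, div_eq_one_iff_eq hpos.ne', EuclideanSpace.real_norm_sq_eq]
    refine Finset.sum_congr rfl fun i _ => ?_
    rw [EuclideanSpace.inner_single_right]
    simp
  rw [integral_congr_ae hae]
  simp

/-- For a standard Gaussian vector `x` of `ℝ^d` and a fixed vector `e`, the mean of the squared
component of `e` along the direction of `x` is `‖e‖^2 / d`. -/
theorem kz_gauss {d : ℕ} (hd : 1 ≤ d) (e : Vec d) :
    Integrable (fun x : Vec d => (inner ℝ x e) ^ 2 / ‖x‖ ^ 2) (stdGaussian (Vec d)) ∧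
    ∫ x : Vec d, (inner ℝ x e) ^ 2 / ‖x‖ ^ 2 ∂(stdGaussian (Vec d)) = ‖e‖ ^ 2 / d := by
  refine ⟨kzGauss_integrable e, ?_⟩
  have hdpos : (0 : ℝ) < d := Nat.cast_pos.mpr hd
  have h0 : ∫ x : Vec d, (inner ℝ x (EuclideanSpace.single (⟨0, hd⟩ : Fin d) (1 : ℝ))) ^ 2 /
      ‖x‖ ^ 2 ∂(stdGaussian (Vec d)) = 1 / d := by
    have hs := kzGauss_sum hd
    have hall : ∀ i : Fin d,
        ∫ x : Vec d, (inner ℝ x (EuclideanSpace.single i (1 : ℝ))) ^ 2 / ‖x‖ ^ 2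
          ∂(stdGaussian (Vec d)) =
        ∫ x : Vec d, (inner ℝ x (EuclideanSpace.single (⟨0, hd⟩ : Fin d) (1 : ℝ))) ^ 2 /
          ‖x‖ ^ 2 ∂(stdGaussian (Vec d)) := by
      intro i
      apply kzGauss_of_norm_eq
      rw [PiLp.norm_single, PiLp.norm_single]
    rw [Finset.sum_congr rfl (fun i _ => hall i), Finset.sum_const, Finset.card_univ,
      Fintype.card_fin, nsmul_eq_mul] at hs
    rw [eq_div_iff hdpos.ne']
    linarith
  have hn : ‖e‖ = ‖‖e‖ • (EuclideanSpace.single (⟨0, hd⟩ : Fin d) (1 : ℝ) : Vec d)‖ := by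
    rw [norm_smul, PiLp.norm_single, norm_one, mul_one, norm_norm]
  rw [kzGauss_of_norm_eq e _ hn, kzGauss_smul, h0]
  ring

end Vale.Agent.Lib.P309
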