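import Vale.Agent.Lib.P309.Kz.Final
import Vale.Agent.Lib.P309.Lin.LogForm

namespace Vale.Agent.Lib.P309

open MeasureTheory ProbabilityTheory
open scoped ENNReal

/-- For `0 < ε ≤ 2^(-576)`, `log₂ (1/ε) ≥ 576`. -/
lemma kzLog_ge (ε : ℝ) (hε0 : 0 < ε) (hε : ε ≤ (1 / 2) ^ 576) :
    (576 : ℝ) ≤ Real.logb 2 (1 / ε) := by
  have hinv : (2 : ℝ) ^ 576 ≤ 1 / ε := by
    rw [le_div_iff₀ hε0]
    have h1 : (2 : ℝ) ^ 576 * ε ≤ 2 ^ 576 * (1 / 2) ^ 576 :=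
      mul_le_mul_of_nonneg_left hε (by positivity)
    have h2 : (2 : ℝ) ^ 576 * (1 / 2) ^ 576 = 1 := by
      rw [← mul_pow]
      norm_num
    exact le_of_le_of_eq h1 h2
  have h576 : ((576 : ℕ) : ℝ) ≤ Real.logb 2 (1 / ε) := by
    rw [Real.le_logb_iff_rpow_le (by norm_num) (by positivity), Real.rpow_natCast]
    exact hinv
  exact_mod_cast h576

/-- If `b ≤ log₂ (1/ε)` then `ε ≤ 2^(-b)`. -/
lemma kzLog_le_pow (ε : ℝ) (hε0 : 0 < ε) (b : ℕ) (hb : (b : ℝ) ≤ Real.logb 2 (1 / ε)) :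
    ε ≤ (1 / 2) ^ b := by
  have h1 : (2 : ℝ) ^ (b : ℝ) ≤ 1 / ε :=
    (Real.le_logb_iff_rpow_le (by norm_num) (by positivity)).mp hb
  rw [Real.rpow_natCast] at h1
  have hpos : (0 : ℝ) < (2 : ℝ) ^ b := by positivity
  have h4 : (1 / 2 : ℝ) ^ b = 1 / ((2 : ℝ) ^ b) := by
    rw [one_div, inv_pow, one_div]
  rw [h4, le_div_iff₀ hpos]
  have h5 : (2 : ℝ) ^ b * ε ≤ 1 := (le_div_iff₀ hε0).mp h1
  calc ε * (2 : ℝ) ^ b = (2 : ℝ) ^ b * ε := mul_comm _ _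
    _ ≤ 1 := h5

/-- If `log₂ (1/ε) ≤ b` then `2^(-b) ≤ ε`. -/
lemma kzLog_pow_le (ε : ℝ) (hε0 : 0 < ε) (b : ℕ) (hb : Real.logb 2 (1 / ε) ≤ (b : ℝ)) :
    (1 / 2) ^ b ≤ ε := by
  have h1 : 1 / ε ≤ (2 : ℝ) ^ (b : ℝ) :=
    (Real.logb_le_iff_le_rpow (by norm_num) (by positivity)).mp hb
  rw [Real.rpow_natCast] at h1
  have hpos : (0 : ℝ) < (2 : ℝ) ^ b := by positivity
  have h4 : (1 / 2 : ℝ) ^ b = 1 / ((2 : ℝ) ^ b) := by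
    rw [one_div, inv_pow, one_div]
  rw [h4, div_le_iff₀ hpos]
  have h5 : 1 ≤ (2 : ℝ) ^ b * ε := (div_le_iff₀ hε0).mp h1
  calc (1 : ℝ) ≤ (2 : ℝ) ^ b * ε := h5
    _ = ε * (2 : ℝ) ^ b := mul_comm _ _

/-- For `d ≥ 2`, `⌈log₂ d⌉ < log₂ d + 1`. -/
lemma kzLog_clog (d : ℕ) (hd : 2 ≤ d) :
    (Nat.clog 2 d : ℝ) < Real.logb 2 (d : ℝ) + 1 := by
  have hc : 1 ≤ Nat.clog 2 d := Nat.clog_pos (by norm_num) hd
  have hlt : 2 ^ (Nat.clog 2 d).pred < d := Nat.pow_pred_clog_lt_self (by norm_num) (by omega)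
  have hltR : (2 : ℝ) ^ (Nat.clog 2 d).pred < (d : ℝ) := by exact_mod_cast hlt
  have hdpos : (0 : ℝ) < (d : ℝ) := by
    have : 0 < d := by omega
    exact_mod_cast this
  have h1 : (((Nat.clog 2 d).pred : ℕ) : ℝ) < Real.logb 2 (d : ℝ) := by
    rw [Real.lt_logb_iff_rpow_lt (by norm_num) hdpos, Real.rpow_natCast]
    exact hltR
  have h2 : (((Nat.clog 2 d).pred : ℕ) : ℝ) = (Nat.clog 2 d : ℝ) - 1 := by
    rw [Nat.pred_eq_sub_one, Nat.cast_sub hc, Nat.cast_one]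
  linarith

/-- Two-sided description of the least horizon in logarithmic form, for `d ≥ 2` and every
accuracy `0 < ε ≤ 2^(-576)`.  (1) If `M + 3 d ≤ (d - 1) log₂ (1/ε)`, no learner with `M` bits
succeeds, whatever the horizon.  (2) If `4 M ≤ d^2`, a learner with `M` bits and horizon `T`
that succeeds has `d log (1/ε) ≤ 10000 T`.  (3) If `M ≥ d (log₂ (1/ε) + 2 log₂ d + 8)` and
`T ≥ 2 d (log₂ (1/ε) + 6)`, some learner with `M` bits and horizon `T` succeeds. -/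
theorem kz_two_sided_log (d M T : ℕ) (ε : ℝ) (hd : 2 ≤ d) (hε0 : 0 < ε)
    (hε : ε ≤ (1 / 2) ^ 576) :
    ((M : ℝ) + 3 * (d : ℝ) ≤ ((d : ℝ) - 1) * Real.logb 2 (1 / ε) →
      ∀ L : Learner d M, L.successProb T ε < ENNReal.ofReal (2 / 3)) ∧
    (4 * M ≤ d ^ 2 → ∀ L : Learner d M, ENNReal.ofReal (2 / 3) ≤ L.successProb T ε →
      (d : ℝ) * Real.log (1 / ε) ≤ 10000 * (T : ℝ)) ∧
    ((d : ℝ) * (Real.logb 2 (1 / ε) + 2 * Real.logb 2 (d : ℝ) + 8) ≤ (M : ℝ) →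
      2 * (d : ℝ) * (Real.logb 2 (1 / ε) + 6) ≤ (T : ℝ) →
      ∃ L : Learner d M, ENNReal.ofReal (2 / 3) ≤ L.successProb T ε) := by
  have hx576 : (576 : ℝ) ≤ Real.logb 2 (1 / ε) := kzLog_ge ε hε0 hε
  have hx0 : 0 ≤ Real.logb 2 (1 / ε) := le_trans (by norm_num) hx576
  have hd2 : (2 : ℝ) ≤ (d : ℝ) := by exact_mod_cast hd
  refine ⟨fun hM L => ?_, fun hM L hsucc => lin_q1_log d M T ε L hd hM hε0 hε hsucc,
    fun hM hT => ?_⟩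
  · obtain ⟨x, hx⟩ : ∃ x : ℝ, x = Real.logb 2 (1 / ε) := ⟨_, rfl⟩
    rw [← hx] at hM hx0
    have hb1 : ((⌊x⌋₊ : ℕ) : ℝ) ≤ x := Nat.floor_le hx0
    have hb2 : x - 1 < ((⌊x⌋₊ : ℕ) : ℝ) := Nat.sub_one_lt_floor x
    have hεb : ε ≤ (1 / 2) ^ ⌊x⌋₊ := kzLog_le_pow ε hε0 _ (by rw [← hx]; exact hb1)
    have hd1 : 1 ≤ d := by omega
    have hk0 : (0 : ℝ) < (d : ℝ) - 1 := by linarith
    have h3 : (x - 1) * ((d : ℝ) - 1) < ((⌊x⌋₊ : ℕ) : ℝ) * ((d : ℝ) - 1) :=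
      mul_lt_mul_of_pos_right hb2 hk0
    have hnat : M + 2 * d + 1 ≤ ⌊x⌋₊ * (d - 1) := by
      have h : ((M + 2 * d + 1 : ℕ) : ℝ) < ((⌊x⌋₊ * (d - 1) : ℕ) : ℝ) := by
        rw [Nat.cast_mul, Nat.cast_sub hd1]
        push_cast
        linarith
      exact (Nat.cast_lt.mp h).le
    exact lin_count d M ⌊x⌋₊ T ε hd hnat hε0 hεb L
  · obtain ⟨x, hx⟩ : ∃ x : ℝ, x = Real.logb 2 (1 / ε) := ⟨_, rfl⟩
    rw [← hx] at hM hT hx0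
    have hb1 : x ≤ ((⌈x⌉₊ : ℕ) : ℝ) := Nat.le_ceil x
    have hb2 : ((⌈x⌉₊ : ℕ) : ℝ) < x + 1 := Nat.ceil_lt_add_one hx0
    have hεb : (1 / 2) ^ ⌈x⌉₊ ≤ ε := kzLog_pow_le ε hε0 _ (by rw [← hx]; exact hb1)
    have hc : (Nat.clog 2 d : ℝ) < Real.logb 2 (d : ℝ) + 1 := kzLog_clog d hd
    have hd0 : (0 : ℝ) < (d : ℝ) := by linarith
    have hM' : d * (⌈x⌉₊ + 2 * Nat.clog 2 d + 5) ≤ M := by
      have h3 : (d : ℝ) * (((⌈x⌉₊ : ℕ) : ℝ) + 2 * (Nat.clog 2 d : ℝ) + 5)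
          < (d : ℝ) * (x + 2 * Real.logb 2 (d : ℝ) + 8) :=
        mul_lt_mul_of_pos_left (by linarith) hd0
      have h : ((d * (⌈x⌉₊ + 2 * Nat.clog 2 d + 5) : ℕ) : ℝ) < ((M : ℕ) : ℝ) := by
        push_cast
        exact lt_of_lt_of_le h3 hM
      exact (Nat.cast_lt.mp h).le
    have hT' : 2 * d * (⌈x⌉₊ + 5) ≤ T := by
      have h3 : 2 * (d : ℝ) * (((⌈x⌉₊ : ℕ) : ℝ) + 5) < 2 * (d : ℝ) * (x + 6) :=
        mul_lt_mul_of_pos_left (by linarith) (by linarith)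
      have h : ((2 * d * (⌈x⌉₊ + 5) : ℕ) : ℝ) < ((T : ℕ) : ℝ) := by
        push_cast
        exact lt_of_lt_of_le h3 hT
      exact (Nat.cast_lt.mp h).le
    exact kz_upper_clog d ⌈x⌉₊ M T ε (by omega) hM' hT' hεb

end Vale.Agent.Lib.P309
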