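import Vale.Agent.Lib.P309.Kz.Defs
import Vale.Agent.Lib.P309.Split

namespace Vale.Agent.Lib.P309

open MeasureTheory ProbabilityTheory
open scoped ENNReal

/-- The state after `T` pairs is a measurable function of the rows. -/
theorem measurable_detState {d M : ℕ} (f : Fin (2 ^ M) × (Vec d × ℝ) → Fin (2 ^ M))
    (hf : Measurable f) (s : Sph d) (m0 : Fin (2 ^ M)) (T : ℕ) :
    Measurable (fun X : ℕ → Vec d =>
      detState f m0 (fun t => (X t, inner ℝ (X t) (s : Vec d))) T) := by
  induction T with
  | zero => exact measurable_const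
  | succ T ih =>
    have hz : Measurable (fun X : ℕ → Vec d => (X T, inner ℝ (X T) (s : Vec d))) :=
      (measurable_pi_apply T).prodMk ((measurable_pi_apply T).inner measurable_const)
    exact hf.comp (ih.prodMk hz)

/-- Reading the first pair first: the state after `T + 1` pairs is the state after the last
`T` pairs started from the state reached with the first pair. -/
theorem kzPeel_shift {d M : ℕ} (f : Fin (2 ^ M) × (Vec d × ℝ) → Fin (2 ^ M))
    (m0 : Fin (2 ^ M)) (z : ℕ → Vec d × ℝ) (T : ℕ) :
    detState f m0 z (T + 1) = detState f (f (m0, z 0)) (fun t => z (t + 1)) T := by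
  induction T with
  | zero => rfl
  | succ T ih =>
    show f (detState f m0 z (T + 1), z (T + 1))
      = f (detState f (f (m0, z 0)) (fun t => z (t + 1)) T, z (T + 1))
    rw [ih]

/-- An integral over the product indexed by a one point type is an integral over the
factor. -/
theorem kzPeel_unique {E : Type*} [MeasurableSpace E] (μ : Measure E) [SigmaFinite μ]
    (Ψ : E → ℝ≥0∞) :
    ∫⁻ X' : Fin 1 → E, Ψ (X' 0) ∂(Measure.pi (fun _ : Fin 1 => μ)) = ∫⁻ x, Ψ x ∂μ := by
  have hmp : MeasurePreserving (MeasurableEquiv.funUnique (Fin 1) E)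
      (Measure.pi (fun _ : Fin 1 => μ)) μ := measurePreserving_funUnique μ (Fin 1)
  have h := lintegral_map_equiv (μ := Measure.pi (fun _ : Fin 1 => μ)) Ψ
    (MeasurableEquiv.funUnique (Fin 1) E)
  rw [hmp.map_eq] at h
  exact h.symm

/-- Peeling the first row: the law of the state after `T + 1` pairs is the mixture, over the
first row `x`, of the laws of the state after `T` pairs started from the state reached with
`x`. -/
theorem kz_peel {d M : ℕ} (f : Fin (2 ^ M) × (Vec d × ℝ) → Fin (2 ^ M)) (hf : Measurable f)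
    (s : Sph d) (F : Fin (2 ^ M) → ℝ≥0∞) (m0 : Fin (2 ^ M)) (T : ℕ) :
    ∫⁻ X : ℕ → Vec d, F (detState f m0 (fun t => (X t, inner ℝ (X t) (s : Vec d))) (T + 1))
        ∂(Measure.infinitePi (fun _ : ℕ => stdGaussian (Vec d)))
      = ∫⁻ x : Vec d, ∫⁻ X : ℕ → Vec d,
          F (detState f (f (m0, (x, inner ℝ x (s : Vec d))))
            (fun t => (X t, inner ℝ (X t) (s : Vec d))) T)
        ∂(Measure.infinitePi (fun _ : ℕ => stdGaussian (Vec d))) ∂(stdGaussian (Vec d)) := by
  have hΦ : Measurable (fun X : ℕ → Vec d =>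
      F (detState f m0 (fun t => (X t, inner ℝ (X t) (s : Vec d))) (T + 1))) :=
    (measurable_of_finite F).comp (measurable_detState f hf s m0 (T + 1))
  have hkey : ∀ (X' : Fin 1 → Vec d) (X'' : ℕ → Vec d),
      detState f m0
          (fun t => (appendX 1 X' X'' t, inner ℝ (appendX 1 X' X'' t) (s : Vec d))) (T + 1)
        = detState f (f (m0, (X' 0, inner ℝ (X' 0) (s : Vec d))))
          (fun t => (X'' t, inner ℝ (X'' t) (s : Vec d))) T := by
    intro X' X''
    have e0 : appendX 1 X' X'' 0 = X' 0 := by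
      unfold appendX
      rw [dif_pos Nat.one_pos]
      rfl
    have e1 : ∀ t, appendX 1 X' X'' (t + 1) = X'' t := by
      intro t
      unfold appendX
      rw [dif_neg (by omega)]
      rfl
    rw [kzPeel_shift]
    simp only [e0, e1]
  calc ∫⁻ X : ℕ → Vec d, F (detState f m0 (fun t => (X t, inner ℝ (X t) (s : Vec d))) (T + 1))
        ∂(Measure.infinitePi (fun _ : ℕ => stdGaussian (Vec d)))
      = ∫⁻ X : ℕ → Vec d,
          F (detState f m0 (fun t => (X t, inner ℝ (X t) (s : Vec d))) (T + 1))
          ∂(((Measure.pi (fun _ : Fin 1 => stdGaussian (Vec d))).prod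
            (Measure.infinitePi (fun _ : ℕ => stdGaussian (Vec d)))).map
              (fun p => appendX 1 p.1 p.2)) :=
        congrArg (fun ν => ∫⁻ X : ℕ → Vec d,
          F (detState f m0 (fun t => (X t, inner ℝ (X t) (s : Vec d))) (T + 1)) ∂ν)
          (infinitePi_eq_map_appendX (stdGaussian (Vec d)) 1)
    _ = ∫⁻ p : (Fin 1 → Vec d) × (ℕ → Vec d),
          F (detState f m0 (fun t => (appendX 1 p.1 p.2 t,
            inner ℝ (appendX 1 p.1 p.2 t) (s : Vec d))) (T + 1))
          ∂((Measure.pi (fun _ : Fin 1 => stdGaussian (Vec d))).prod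
            (Measure.infinitePi (fun _ : ℕ => stdGaussian (Vec d)))) :=
        lintegral_map hΦ (measurable_appendX 1)
    _ = ∫⁻ X' : Fin 1 → Vec d, ∫⁻ X'' : ℕ → Vec d,
          F (detState f m0 (fun t => (appendX 1 X' X'' t,
            inner ℝ (appendX 1 X' X'' t) (s : Vec d))) (T + 1))
          ∂(Measure.infinitePi (fun _ : ℕ => stdGaussian (Vec d)))
          ∂(Measure.pi (fun _ : Fin 1 => stdGaussian (Vec d))) :=
        lintegral_prod _ (hΦ.comp (measurable_appendX 1)).aemeasurable
    _ = ∫⁻ X' : Fin 1 → Vec d, ∫⁻ X'' : ℕ → Vec d,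
          F (detState f (f (m0, (X' 0, inner ℝ (X' 0) (s : Vec d))))
            (fun t => (X'' t, inner ℝ (X'' t) (s : Vec d))) T)
          ∂(Measure.infinitePi (fun _ : ℕ => stdGaussian (Vec d)))
          ∂(Measure.pi (fun _ : Fin 1 => stdGaussian (Vec d))) := by
        refine lintegral_congr (fun X' => lintegral_congr (fun X'' => ?_))
        rw [hkey X' X'']
    _ = ∫⁻ x : Vec d, ∫⁻ X : ℕ → Vec d,
          F (detState f (f (m0, (x, inner ℝ x (s : Vec d))))
            (fun t => (X t, inner ℝ (X t) (s : Vec d))) T)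
        ∂(Measure.infinitePi (fun _ : ℕ => stdGaussian (Vec d))) ∂(stdGaussian (Vec d)) :=
        kzPeel_unique (stdGaussian (Vec d)) (fun x : Vec d => ∫⁻ X : ℕ → Vec d,
          F (detState f (f (m0, (x, inner ℝ x (s : Vec d))))
            (fun t => (X t, inner ℝ (X t) (s : Vec d))) T)
          ∂(Measure.infinitePi (fun _ : ℕ => stdGaussian (Vec d))))

end Vale.Agent.Lib.P309
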