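import Vale.Agent.Lib.P309.Kz.Final
import Vale.Agent.Lib.P309.Lin.Final

namespace Vale.Agent.Lib.P309

open MeasureTheory ProbabilityTheory
open scoped ENNReal

/-- Two-sided description of the least horizon at accuracy `2^(-b)`, `b ≥ 576`, `d ≥ 2`.
Lower bounds, for every accuracy `0 < ε ≤ 2^(-b)`, every horizon `T` and every learner with `M`
bits: no success if `M + 2 d + 1 ≤ b (d - 1)` (whatever `T`), or if `M + 3 ≤ d^2` and
`10000 T ≤ b d`, or if `512 J (M + 3) + 64 J d^2 ≤ b d^2` and `T ≤ J ⌊d/4⌋` for some `J ≥ 1`.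
Upper bound, for every accuracy `ε ≥ 2^(-b)`: if `M ≥ d (b + 2 ⌈log₂ d⌉ + 5)` then for every
horizon `T ≥ 2 d (b + 5)` some learner with `M` bits succeeds with probability at least
`2/3`. -/
theorem kz_two_sided (d M b : ℕ) (ε : ℝ) (hd : 2 ≤ d) (hb : 576 ≤ b) :
    (0 < ε → ε ≤ (1 / 2) ^ b → ∀ (T : ℕ) (L : Learner d M),
      (M + 2 * d + 1 ≤ b * (d - 1) → L.successProb T ε < ENNReal.ofReal (2 / 3)) ∧
      (M + 3 ≤ d ^ 2 → 10000 * T ≤ b * d → L.successProb T ε < ENNReal.ofReal (2 / 3)) ∧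
      (∀ J : ℕ, 1 ≤ J → 512 * J * (M + 3) + 64 * J * d ^ 2 ≤ b * d ^ 2 → T ≤ J * (d / 4) →
        L.successProb T ε < ENNReal.ofReal (2 / 3))) ∧
    ((1 / 2) ^ b ≤ ε → d * (b + 2 * Nat.clog 2 d + 5) ≤ M → ∀ T : ℕ, 2 * d * (b + 5) ≤ T →
      ∃ L : Learner d M, ENNReal.ofReal (2 / 3) ≤ L.successProb T ε) := by
  refine ⟨fun hε0 hε T L => ⟨fun hM => ?_, fun hM hT => ?_, fun J hJ hbJ hT => ?_⟩,
    fun hε hM T hT => ?_⟩
  · exact lin_count d M b T ε hd hM hε0 hε L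
  · exact lin_q1 d M b T ε hd hM hb hT hε0 hε L
  · exact lin_general d M J b T ε hd hJ hbJ hT hε0 hε L
  · exact kz_upper_clog d b M T ε (by omega) hM hT hε

end Vale.Agent.Lib.P309
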